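import Crest.Agent.Lib.Bc.Orbit.B6E.C0
/-! Row 163: the exit of the critical tree `b = 6`: `s < 21/100` at level 24 (grid size 24). -/
set_option maxRecDepth 1000000
open Crest.ProbabilityR.Broadcast
namespace Crest.Agent.Lib.Bc.GridO.B6E
theorem exit0 : momS (leafSL 3 6 (-(((29 : ℕ) : ℝ) / ((71 : ℕ) : ℝ))) 24 (by norm_num) hch0) < ((21 : ℕ) : ℝ) / ((100 : ℕ) : ℝ) := by
  have hg : Good 24 268435456 P w24 := by rw [hP]; exact inv24.1
  have hlt : 100 * aSumF P w24 < (2 * 21 + 100) * 268435456 * (24 * 24) := by decide +kernel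
  have h1 := momS_lt_of_grid hg (by norm_num) hlt
  have h2 := inv24.2 (aFn 3) (aFn_convexSym' (by norm_num))
  rw [← hP] at h2
  exact lt_of_le_of_lt h2 h1
/-- the exit of the critical tree `b = 6`: any `lam < 0` with `b lam² = 1`. -/
theorem exit_crit (lam : ℝ) (hl : lam < 0) (hb : (6 : ℝ) * lam ^ 2 = 1)
    (hch : ∀ i j : Fin 3, 0 ≤ channel 3 lam i j) :
    momS (leafSL 3 6 lam 24 (by norm_num) hch) < (21 : ℝ) / 100 := by
  have hle : -(((29 : ℕ) : ℝ) / ((71 : ℕ) : ℝ)) ≤ lam := by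
    push_cast
    nlinarith
  have h1 := momS_leaf_le_of_ratio (b := 6) (by norm_num) hl hle hch0 hch 24
  have h2 := exit0
  push_cast at h2
  exact lt_of_le_of_lt h1 h2
end Crest.Agent.Lib.Bc.GridO.B6E
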