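import Crest.Agent.Lib.Bc.Orbit.B6E.Setup
/-! Row 163: the grid orbit at `b = 6`, levels 0 to 24. -/
set_option maxRecDepth 1000000
open Crest.ProbabilityR.Broadcast
namespace Crest.Agent.Lib.Bc.GridO.B6E
def w24 : List ℕ := [nat_lit 1558,nat_lit 72339,nat_lit 525084,nat_lit 331184,nat_lit 2688391,nat_lit 2455146,nat_lit 663506,nat_lit 3828474,nat_lit 5826517,nat_lit 3298892,nat_lit 952459,nat_lit 4530272,nat_lit 6247480,nat_lit 6739516,nat_lit 3575475,nat_lit 1170593,nat_lit 4967974,nat_lit 6445855,nat_lit 6744223,nat_lit 6856348,nat_lit 3382865,nat_lit 1362885,nat_lit 5128869,nat_lit 6718438,nat_lit 6660211,nat_lit 6660248,nat_lit 6589059,nat_lit 3331641,nat_lit 1484328,nat_lit 5325301,nat_lit 6591768,nat_lit 6645394,nat_lit 6549900,nat_lit 6452623,nat_lit 6438499,nat_lit 3101510,nat_lit 1611514,nat_lit 5369028,nat_lit 6560529,nat_lit 6636282,nat_lit 6582110,nat_lit 6306889,nat_lit 6441529,nat_lit 6329493,nat_lit 1009729,nat_lit 1684503,nat_lit 5461550,nat_lit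 6537032,nat_lit 6697494,nat_lit 6441329,nat_lit 6401622,nat_lit 3094758,nat_lit 1728048,nat_lit 5482068,nat_lit 6464333,nat_lit 6688152,nat_lit 3221082,nat_lit 1739206,nat_lit 5500174,nat_lit 3226219,nat_lit 875958]
theorem chk24 : eqF (levels6F 82 4835703278458516698824704 3766096493460578912698368 83010348331692982272 268435456 (mkTabF 24 9 82 K K) (mkTabF 24 9 82 P P) ks 24 w0) w24 = true := by decide +kernel
theorem inv24 : InvB 6 (-(((29 : ℕ) : ℝ) / ((71 : ℕ) : ℝ))) hch0 24 9 268435456 ks 24 w24 := by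
  simpa using InvB.check6 (m := 0) (k := 24) setup hP hK hB hT1 hT2 inv0 chk24
end Crest.Agent.Lib.Bc.GridO.B6E
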